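import Vale.Agent.Helper8.KTVG.Plain
import Vale.Agent.Lead.KTVLiteralDefs

/-!
The chain of problem P335 written literally (uniform 4-set, then a uniform ordered pair of
distinct perfect matchings on it) has the same transition matrix as the switch chain on
ordered 4-tuples.  Here the three combinatorial facts about perfect matchings of a 4-set are
taken as hypotheses; `Vale.Agent.Helper8.KTVG.LiteralMain` plugs them in.
-/

set_option linter.unusedSectionVars false

namespace KTVG.H8

open Finset Classical Vale.Agent.Helper13.Switch Vale.Agent.Lead.KTVLiteral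

variable {n : ℕ}

/-- a switch preserves all degrees -/
theorem isSwitch_degree {G G' : SimpleGraph (Fin n)} (h : IsSwitch G G') (x : Fin n) :
    G'.degree x = G.degree x := by
  obtain ⟨a, b, c, e, hab, hac, hae, hbc, hbe, hce, hA, rfl⟩ := h
  exact degree_switch hA hab hac hae hbc hbe hce x

theorem mem_pairs (S : Finset (Fin n)) (FF : Finset (Sym2 (Fin n)) × Finset (Sym2 (Fin n))) :
    FF ∈ pairs S ↔ PM S FF.1 ∧ PM S FF.2 ∧ FF.1 ≠ FF.2 := by
  unfold pairs
  rw [Finset.mem_filter]
  exact ⟨fun h => h.2, fun h => ⟨Finset.mem_univ _, h⟩⟩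

/-- the literal chain is the switch chain, given the facts about perfect matchings -/
theorem literal_eq_switchChain_of (hn : 4 ≤ n) (d : Fin n → ℕ)
    (hcard : ∀ S : Finset (Fin n), S.card = 4 → (pairs S).card = 6)
    (hsw1 : ∀ (S : Finset (Fin n)) (F F' : Finset (Sym2 (Fin n))) (G : SimpleGraph (Fin n)),
      S.card = 4 → PM S F → PM S F' → F ≠ F' → step G F F' ≠ G → IsSwitch G (step G F F'))
    (hsw2 : ∀ G G' : SimpleGraph (Fin n), IsSwitch G G' →
      ∃ (S : Finset (Fin n)) (F F' : Finset (Sym2 (Fin n))),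
        S.card = 4 ∧ PM S F ∧ PM S F' ∧ F ≠ F' ∧ step G F F' = G')
    (huniq : ∀ (S₁ S₂ : Finset (Fin n)) (F₁ F₁' F₂ F₂' : Finset (Sym2 (Fin n)))
      (G : SimpleGraph (Fin n)), PM S₁ F₁ → PM S₁ F₁' → PM S₂ F₂ → PM S₂ F₂' →
      step G F₁ F₁' ≠ G → step G F₁ F₁' = step G F₂ F₂' → S₁ = S₂ ∧ F₁ = F₂ ∧ F₁' = F₂') :
    literalChain n d = switchChain n d := by
  have hC : (0 : ℝ) < (n.choose 4 : ℝ) := by exact_mod_cast Nat.choose_pos hn
  apply eq_switchChain hn d
  · intro G G' hne
    have hne1 : G'.1 ≠ G.1 := fun h => hne (Subtype.ext h.symm)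
    unfold literalChain
    rw [if_neg (Ne.symm hne)]
    by_cases h : IsSwitch G.1 G'.1
    · rw [if_pos h]
      obtain ⟨S, F, F', hS, hF, hF', hFF, hstep⟩ := hsw2 _ _ h
      have hmove : step G.1 F F' ≠ G.1 := by rw [hstep]; exact hne1
      have hSmem : S ∈ (Finset.univ : Finset (Fin n)).powersetCard 4 :=
        Finset.mem_powersetCard.mpr ⟨Finset.subset_univ _, hS⟩
      rw [Finset.sum_eq_single S]
      · rw [Finset.sum_eq_single ((F, F') : Finset (Sym2 (Fin n)) × Finset (Sym2 (Fin n)))]
        · rw [if_pos hstep]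
          field_simp
          ring
        · intro FF hFFmem hFFne
          obtain ⟨h1, h2, h3⟩ := (mem_pairs S FF).mp hFFmem
          rw [if_neg, mul_zero]
          intro hs
          obtain ⟨-, e1, e2⟩ :=
            huniq S S F F' FF.1 FF.2 G.1 hF hF' h1 h2 hmove (hstep.trans hs.symm)
          exact hFFne (Prod.ext e1.symm e2.symm)
        · intro hnot
          exact absurd ((mem_pairs S (F, F')).mpr ⟨hF, hF', hFF⟩) hnot
      · intro S' hS' hS'ne
        rw [Finset.sum_eq_zero, mul_zero]
        intro FF hFFmem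
        obtain ⟨h1, h2, h3⟩ := (mem_pairs S' FF).mp hFFmem
        rw [if_neg, mul_zero]
        intro hs
        obtain ⟨e0, -, -⟩ :=
          huniq S S' F F' FF.1 FF.2 G.1 hF hF' h1 h2 hmove (hstep.trans hs.symm)
        exact hS'ne e0.symm
      · intro hnot
        exact absurd hSmem hnot
    · rw [if_neg h, Finset.sum_eq_zero]
      · ring
      · intro S' hS'
        have hS4 : S'.card = 4 := (Finset.mem_powersetCard.mp hS').2
        rw [Finset.sum_eq_zero, mul_zero]
        intro FF hFFmem
        obtain ⟨h1, h2, h3⟩ := (mem_pairs S' FF).mp hFFmem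
        rw [if_neg, mul_zero]
        intro hs
        apply h
        have h4 := hsw1 S' FF.1 FF.2 G.1 hS4 h1 h2 h3 (by rw [hs]; exact hne1)
        rwa [hs] at h4
  · intro G
    have key : ∀ S ∈ (Finset.univ : Finset (Fin n)).powersetCard 4,
        ∑ G' : Realization n d, (1 / (n.choose 4 : ℝ)) *
          ∑ FF ∈ pairs S, (1 / 6 : ℝ) * (if step G.1 FF.1 FF.2 = G'.1 then 1 else 0)
        = 1 / (n.choose 4 : ℝ) := by
      intro S hS
      have hS4 : S.card = 4 := (Finset.mem_powersetCard.mp hS).2
      rw [← Finset.mul_sum, Finset.sum_comm]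
      have inner : ∀ FF ∈ pairs S, ∑ G' : Realization n d,
          (1 / 6 : ℝ) * (if step G.1 FF.1 FF.2 = G'.1 then 1 else 0) = 1 / 6 := by
        intro FF hFF
        obtain ⟨h1, h2, h3⟩ := (mem_pairs S FF).mp hFF
        have hdeg : ∀ i, (step G.1 FF.1 FF.2).degree i = d i := by
          intro i
          by_cases hm : step G.1 FF.1 FF.2 = G.1
          · rw [hm]; exact G.2 i
          · rw [isSwitch_degree (hsw1 S FF.1 FF.2 G.1 hS4 h1 h2 h3 hm) i]; exact G.2 i
        rw [← Finset.mul_sum,
          Finset.sum_eq_single (⟨step G.1 FF.1 FF.2, hdeg⟩ : Realization n d)]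
        · rw [if_pos rfl, mul_one]
        · intro G' _ hG'
          rw [if_neg]
          intro h
          exact hG' (Subtype.ext h.symm)
        · intro h
          exact absurd (Finset.mem_univ _) h
      rw [Finset.sum_congr rfl inner, Finset.sum_const, hcard S hS4]
      norm_num
    unfold literalChain
    rw [Finset.sum_add_distrib, ← Finset.mul_sum, ← Finset.mul_sum, Finset.sum_ite_eq',
      if_pos (Finset.mem_univ _), Finset.sum_comm, Finset.sum_congr rfl key, Finset.sum_const,
      Finset.card_powersetCard, Finset.card_univ, Fintype.card_fin, nsmul_eq_mul]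
    field_simp
    ring

end KTVG.H8
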