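import Vale.Agent.Helper8.KTVG.Literal
import Vale.Agent.Helper13.KTVLiteralPM
import Vale.Agent.Helper16.KTVLiteralStep
import Vale.Agent.Helper1.KTVLiteralUnique

/-!
The chain of problem P335 written literally (uniform 4-set, then a uniform ordered pair of
distinct perfect matchings on it) is the switch chain on ordered 4-tuples: same transition
matrix.  Assembly of `literal_eq_switchChain_of` with the three facts about perfect matchings
of a 4-set (helper13, helper16, helper1).
-/

namespace KTVG.H8

open Vale.Agent.Helper13.Switch Vale.Agent.Lead.KTVLiteral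

variable {n : ℕ}

/-- the literal chain is the switch chain -/
theorem literal_eq_switchChain (hn : 4 ≤ n) (d : Fin n → ℕ) :
    literalChain n d = switchChain n d :=
  literal_eq_switchChain_of hn d
    (fun S hS => Vale.Agent.Helper13.KTVLiteralPM.card_pairs S hS)
    (fun _ _ _ G hS hF hF' hne hm =>
      Vale.Agent.Helper16.KTVLiteralStep.step_isSwitch hS hF hF' hne G hm)
    (fun G G' h => Vale.Agent.Helper16.KTVLiteralStep.isSwitch_step G G' h)
    (fun _ _ _ _ _ _ G h₁ h₁' h₂ h₂' hm he =>
      Vale.Agent.Helper1.KTVLiteralUnique.step_unique h₁ h₁' h₂ h₂' G hm he)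

end KTVG.H8
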