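import Vale.Agent.Helper16.KTVG.Gap
import Vale.Agent.Helper1.KTVG.Final

/-!
Plain forms of the general-graph switch-chain theorem (problem P335): the switch relation
written out on adjacency relations, the spectral gap on a finite set of graphs, and the
mixing bound for any matrix with the transition probabilities of the switch chain.
-/

set_option linter.unusedSectionVars false

namespace KTVG.H8

open Finset Classical Vale.Agent.Helper13.Switch

variable {n : ℕ}

/-- the switch relation written out: `ab`, `ce` are edges and `ac`, `be` are non-edges of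
`G`, and `G'` is `G` with `ab`, `ce` removed and `ac`, `be` inserted -/
theorem isSwitch_iff_plain (G G' : SimpleGraph (Fin n)) :
    IsSwitch G G' ↔
      ∃ a b c e : Fin n, a ≠ b ∧ a ≠ c ∧ a ≠ e ∧ b ≠ c ∧ b ≠ e ∧ c ≠ e ∧
        G.Adj a b ∧ G.Adj c e ∧ ¬ G.Adj a c ∧ ¬ G.Adj b e ∧
        ∀ x y : Fin n, G'.Adj x y ↔
          ((G.Adj x y ∧ ¬ (x = a ∧ y = b) ∧ ¬ (x = b ∧ y = a) ∧ ¬ (x = c ∧ y = e)
              ∧ ¬ (x = e ∧ y = c))
            ∨ (x = a ∧ y = c) ∨ (x = c ∧ y = a) ∨ (x = b ∧ y = e) ∨ (x = e ∧ y = b)) := by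
  constructor
  · rintro ⟨a, b, c, e, hab, hac, hae, hbc, hbe, hce, hA, rfl⟩
    refine ⟨a, b, c, e, hab, hac, hae, hbc, hbe, hce, hA.1, hA.2.1, hA.2.2.1, hA.2.2.2, ?_⟩
    intro x y
    rw [switchGraph_adj]
    constructor
    · rintro (⟨h1, h2, h3⟩ | ⟨h1, h2⟩)
      · exact Or.inl ⟨h1, fun h => h2 (Or.inl h), fun h => h2 (Or.inr h),
          fun h => h3 (Or.inl h), fun h => h3 (Or.inr h)⟩
      · rcases h1 with (h | h) | (h | h)
        · exact Or.inr (Or.inl h)
        · exact Or.inr (Or.inr (Or.inl h))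
        · exact Or.inr (Or.inr (Or.inr (Or.inl h)))
        · exact Or.inr (Or.inr (Or.inr (Or.inr h)))
    · rintro (⟨h1, h2, h3, h4, h5⟩ | h | h | h | h)
      · exact Or.inl ⟨h1, fun h => h.elim h2 h3, fun h => h.elim h4 h5⟩
      · exact Or.inr ⟨Or.inl (Or.inl h), by rw [h.1, h.2]; exact hac⟩
      · exact Or.inr ⟨Or.inl (Or.inr h), by rw [h.1, h.2]; exact hac.symm⟩
      · exact Or.inr ⟨Or.inr (Or.inl h), by rw [h.1, h.2]; exact hbe⟩
      · exact Or.inr ⟨Or.inr (Or.inr h), by rw [h.1, h.2]; exact hbe.symm⟩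
  · rintro ⟨a, b, c, e, hab, hac, hae, hbc, hbe, hce, h1, h2, h3, h4, hG'⟩
    refine ⟨a, b, c, e, hab, hac, hae, hbc, hbe, hce, ⟨h1, h2, h3, h4⟩, ?_⟩
    ext x y
    rw [hG', switchGraph_adj]
    constructor
    · rintro (⟨k1, k2, k3, k4, k5⟩ | h | h | h | h)
      · exact Or.inl ⟨k1, fun h => h.elim k2 k3, fun h => h.elim k4 k5⟩
      · exact Or.inr ⟨Or.inl (Or.inl h), by rw [h.1, h.2]; exact hac⟩
      · exact Or.inr ⟨Or.inl (Or.inr h), by rw [h.1, h.2]; exact hac.symm⟩
      · exact Or.inr ⟨Or.inr (Or.inl h), by rw [h.1, h.2]; exact hbe⟩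
      · exact Or.inr ⟨Or.inr (Or.inr h), by rw [h.1, h.2]; exact hbe.symm⟩
    · rintro (⟨k1, k2, k3⟩ | ⟨k1, k2⟩)
      · exact Or.inl ⟨k1, fun h => k2 (Or.inl h), fun h => k2 (Or.inr h),
          fun h => k3 (Or.inl h), fun h => k3 (Or.inr h)⟩
      · rcases k1 with (h | h) | (h | h)
        · exact Or.inr (Or.inl h)
        · exact Or.inr (Or.inr (Or.inl h))
        · exact Or.inr (Or.inr (Or.inr (Or.inl h)))
        · exact Or.inr (Or.inr (Or.inr (Or.inr h)))

/-- the spectral gap of the switch graph on any finite set `Ω` whose members are exactly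
the graphs with degree vector `d` -/
theorem plain_gap (n : ℕ) (d : Fin n → ℕ) (Ω : Finset (SimpleGraph (Fin n)))
    (hΩ : ∀ G : SimpleGraph (Fin n), G ∈ Ω ↔ ∀ i, G.degree i = d i)
    (f : SimpleGraph (Fin n) → ℝ) :
    2 * ∑ G ∈ Ω, (f G - (∑ H ∈ Ω, f H) / (Ω.card : ℝ)) ^ 2
      ≤ (1 / 2 : ℝ) * ∑ G ∈ Ω, ∑ G' ∈ Ω, (if IsSwitch G G' then (f G - f G') ^ 2 else 0) := by
  have hΩeq : Ω = gOmega n d := by
    ext G
    rw [hΩ G, mem_gOmega]
  subst hΩeq
  have h := gapStmt n d f
  have hd : KTV.dirichlet (gOmega n d) IsSwitch f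
      = ∑ G ∈ gOmega n d, ∑ G' ∈ gOmega n d, (if IsSwitch G G' then (f G - f G') ^ 2 else 0) := by
    unfold KTV.dirichlet
    refine Finset.sum_congr rfl (fun x _ => ?_)
    rw [Finset.sum_filter]
  have hs : KTV.sqDev (gOmega n d) f
      = ∑ G ∈ gOmega n d, (f G - (∑ H ∈ gOmega n d, f H) / ((gOmega n d).card : ℝ)) ^ 2 := rfl
  rw [hd, hs] at h
  linarith

/-- a matrix with the transition probabilities of the switch chain is the switch chain -/
theorem eq_switchChain (hn : 4 ≤ n) (d : Fin n → ℕ)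
    (P : Matrix (Realization n d) (Realization n d) ℝ)
    (hsw : ∀ G G' : Realization n d, G ≠ G' →
      P G G' = if IsSwitch G.1 G'.1 then 1 / (12 * (n.choose 4 : ℝ)) else 0)
    (hrow : ∀ G : Realization n d, ∑ G', P G G' = 1) : P = switchChain n d := by
  have hoff : ∀ G G' : Realization n d, G ≠ G' → P G G' = switchChain n d G G' := by
    intro G G' hne
    rw [hsw G G' hne]
    by_cases h : IsSwitch G.1 G'.1
    · rw [if_pos h, switchChain_of_switch h]
    · rw [if_neg h, switchChain_of_not_switch hne h]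
  funext G G'
  by_cases hne : G = G'
  · subst hne
    have h1 := hrow G
    have h2 := chain_row (d := d) hn G
    rw [← Finset.add_sum_erase _ _ (Finset.mem_univ G)] at h1 h2
    have h3 : ∑ x ∈ Finset.univ.erase G, P G x = ∑ x ∈ Finset.univ.erase G, switchChain n d G x :=
      Finset.sum_congr rfl (fun x hx => hoff G x (Finset.ne_of_mem_erase hx).symm)
    linarith
  · exact hoff G G' hne

/-- no graph is a switch of itself -/
theorem not_isSwitch_self (G : SimpleGraph (Fin n)) : ¬ IsSwitch G G := by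
  rintro ⟨a, b, c, e, hab, hac, hae, hbc, hbe, hce, hA, he⟩
  exact switchGraph_ne hA hab hac hae hbc hbe hce he.symm

/-- the matrix with the transition probabilities of the switch chain written out entry by
entry is the switch chain -/
theorem explicit_eq_switchChain (hn : 4 ≤ n) (d : Fin n → ℕ) :
    (fun G G' : Realization n d =>
      if G' = G then
        1 - ((Finset.univ.filter fun H : Realization n d => IsSwitch G.1 H.1).card : ℝ)
          / (12 * (n.choose 4 : ℝ))
      else if IsSwitch G.1 G'.1 then 1 / (12 * (n.choose 4 : ℝ)) else 0)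
      = switchChain n d := by
  apply eq_switchChain hn d
  · intro G G' hne
    simp only [if_neg (Ne.symm hne)]
  · intro G
    rw [← Finset.add_sum_erase _ _ (Finset.mem_univ G)]
    simp only [if_true]
    have h1 : ∑ x ∈ Finset.univ.erase G,
        (if x = G then
          1 - ((Finset.univ.filter fun H : Realization n d => IsSwitch G.1 H.1).card : ℝ)
            / (12 * (n.choose 4 : ℝ))
        else if IsSwitch G.1 x.1 then 1 / (12 * (n.choose 4 : ℝ)) else 0)
        = ∑ x ∈ Finset.univ.erase G,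
            (if IsSwitch G.1 x.1 then 1 / (12 * (n.choose 4 : ℝ)) else 0) :=
      Finset.sum_congr rfl (fun x hx => by rw [if_neg (Finset.ne_of_mem_erase hx)])
    have h2 : (Finset.univ.erase G).filter (fun H : Realization n d => IsSwitch G.1 H.1)
        = Finset.univ.filter (fun H : Realization n d => IsSwitch G.1 H.1) := by
      ext H
      simp only [Finset.mem_filter, Finset.mem_erase, Finset.mem_univ, and_true, true_and]
      constructor
      · exact fun h => h.2
      · intro h
        refine ⟨?_, h⟩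
        rintro rfl
        exact not_isSwitch_self _ h
    rw [h1, ← Finset.sum_filter, h2, Finset.sum_const, nsmul_eq_mul]
    ring

end KTVG.H8
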